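import Vale.Agent.P207.N3.H339.Taylor

/-!
# Closure properties of `IsPoly`
-/

namespace Vale.Agent.P207.N3.H339

open Set Metric Filter Topology

variable {E F W : Type*} [NormedAddCommGroup E] [NormedSpace ℝ E]
  [NormedAddCommGroup F] [NormedSpace ℝ F]
  [NormedAddCommGroup W] [NormedSpace ℝ W]

lemma IsPoly.mono {d e : ℕ} {P : E → W} (hP : IsPoly d P) (h : d ≤ e) : IsPoly e P := by
  induction e, h using Nat.le_induction with
  | base => exact hP
  | succ n _ ih => exact ih.succ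

lemma IsPoly.zero_of_lt {d m : ℕ} {P : E → W} (hP : IsPoly d P) (h : d < m) (x : E) :
    iteratedFDeriv ℝ m P x = 0 := by
  obtain ⟨m, rfl⟩ : ∃ n, m = n + 1 := ⟨m - 1, by omega⟩
  exact (hP.mono (Nat.lt_succ_iff.1 h)).zero x

lemma IsPoly.add {d : ℕ} {P Q : E → W} (hP : IsPoly d P) (hQ : IsPoly d Q) :
    IsPoly d (fun x => P x + Q x) := by
  refine ⟨hP.smooth.add hQ.smooth, fun x => ?_⟩
  have h := iteratedFDeriv_add_apply (𝕜 := ℝ) (i := d + 1) (f := P) (g := Q) (x := x)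
    (hP.smooth.contDiffAt.of_le (by exact_mod_cast le_top))
    (hQ.smooth.contDiffAt.of_le (by exact_mod_cast le_top))
  have e : (fun x => P x + Q x) = P + Q := rfl
  rw [e, h, hP.zero, hQ.zero, add_zero]

lemma isPoly_const (d : ℕ) (c : W) : IsPoly d (fun _ : E => c) := by
  refine ⟨contDiff_const, fun x => ?_⟩
  rw [iteratedFDeriv_succ_const]
  rfl

lemma IsPoly.sum {ι : Type*} {d : ℕ} {s : Finset ι} {P : ι → E → W} (hP : ∀ i ∈ s, IsPoly d (P i)) :
    IsPoly d (fun x => ∑ i ∈ s, P i x) := by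
  classical
  induction s using Finset.induction_on with
  | empty => simpa using isPoly_const d (0 : W)
  | insert a s ha ih =>
    simp_rw [Finset.sum_insert ha]
    exact (hP a (by simp)).add (ih (fun i hi => hP i (by simp [hi])))

lemma isPoly_clm (A : E →L[ℝ] W) : IsPoly 1 (fun x => A x) := by
  refine ⟨A.contDiff, fun x => ?_⟩
  rw [← norm_eq_zero, ← norm_iteratedFDeriv_fderiv]
  have e : fderiv ℝ (fun x => A x) = fun _ => A := funext (fun x => A.fderiv)
  rw [e, iteratedFDeriv_succ_const]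
  exact norm_zero

lemma IsPoly.clm_comp {d : ℕ} {P : E → W} (hP : IsPoly d P) (A : W →L[ℝ] F) : IsPoly d (fun x => A (P x)) := by
  refine ⟨A.contDiff.comp hP.smooth, fun x => ?_⟩
  have h := A.iteratedFDeriv_comp_left (f := P) (x := x) (n := (⊤ : ℕ∞)) (i := d + 1)
    hP.smooth.contDiffAt (by exact_mod_cast le_top)
  have e : (fun x => A (P x)) = A ∘ P := rfl
  rw [e, h, hP.zero]
  ext v
  simp

lemma IsPoly.smul_const {d : ℕ} {P : E → W} (hP : IsPoly d P) (c : ℝ) : IsPoly d (fun x => c • P x) :=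
  hP.clm_comp (c • ContinuousLinearMap.id ℝ W)

lemma IsPoly.comp_clm {d : ℕ} {P : E → W} (hP : IsPoly d P) (A : F →L[ℝ] E) : IsPoly d (fun x => P (A x)) := by
  refine ⟨hP.smooth.comp A.contDiff, fun x => ?_⟩
  have h := A.iteratedFDeriv_comp_right (f := P) (n := (⊤ : ℕ∞)) hP.smooth x (i := d + 1)
    (by exact_mod_cast le_top)
  have e : (fun x => P (A x)) = P ∘ A := rfl
  rw [e, h, hP.zero]
  ext v
  simp

lemma IsPoly.comp_add {d : ℕ} {P : E → W} (hP : IsPoly d P) (b : E) : IsPoly d (fun x => P (x + b)) := by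
  refine ⟨hP.smooth.comp (contDiff_id.add contDiff_const), fun x => ?_⟩
  rw [iteratedFDeriv_comp_add_right]
  exact hP.zero _

lemma IsPoly.comp_affine {d : ℕ} {P : E → W} (hP : IsPoly d P) (A : F →L[ℝ] E) (b : E) :
    IsPoly d (fun x => P (A x + b)) :=
  (hP.comp_add b).comp_clm A

lemma IsPoly.mul {d e : ℕ} {P Q : E → ℝ} (hP : IsPoly d P) (hQ : IsPoly e Q) :
    IsPoly (d + e) (fun x => P x * Q x) := by
  refine ⟨hP.smooth.mul hQ.smooth, fun x => ?_⟩
  have h := norm_iteratedFDeriv_mul_le (𝕜 := ℝ) (f := P) (g := Q) (N := (⊤ : ℕ∞)) hP.smooth hQ.smooth x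
    (n := d + e + 1) (by exact_mod_cast le_top)
  have h0 : ∑ i ∈ Finset.range (d + e + 1 + 1), ((d + e + 1).choose i : ℝ) * ‖iteratedFDeriv ℝ i P x‖ *
      ‖iteratedFDeriv ℝ (d + e + 1 - i) Q x‖ = 0 := by
    refine Finset.sum_eq_zero (fun i _ => ?_)
    rcases Nat.lt_or_ge d i with hi | hi
    · rw [hP.zero_of_lt hi, norm_zero]; ring
    · rw [hQ.zero_of_lt (show e < d + e + 1 - i by omega), norm_zero]; ring
  rw [h0] at h
  exact norm_le_zero_iff.1 h

lemma IsPoly.pow {d : ℕ} {P : E → ℝ} (hP : IsPoly d P) (n : ℕ) : IsPoly (n * d) (fun x => P x ^ n) := by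
  induction n with
  | zero => simpa using isPoly_const 0 (1 : ℝ)
  | succ n ih =>
    have h := ih.mul hP
    rw [Nat.succ_mul]
    simpa [pow_succ] using h

lemma isPoly_apply {ι : Type*} [Fintype ι] (i : ι) : IsPoly 1 (fun x : ι → ℝ => x i) :=
  isPoly_clm (ContinuousLinearMap.proj (R := ℝ) (φ := fun _ : ι => ℝ) i)

lemma IsPoly.prod {ι : Type*} {s : Finset ι} {d : ι → ℕ} {P : ι → E → ℝ} (hP : ∀ i ∈ s, IsPoly (d i) (P i)) :
    IsPoly (∑ i ∈ s, d i) (fun x => ∏ i ∈ s, P i x) := by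
  classical
  induction s using Finset.induction_on with
  | empty => simpa using isPoly_const 0 (1 : ℝ)
  | insert a s ha ih =>
    simp_rw [Finset.sum_insert ha, Finset.prod_insert ha]
    exact (hP a (by simp)).mul (ih (fun i hi => hP i (by simp [hi])))

end Vale.Agent.P207.N3.H339
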