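import Mathlib

/-!
# Converse Taylor theorem (row N3-P11J, (CT))
-/

namespace Vale.Agent.P207.N3.H339

open Set Metric Filter Topology

universe u

section poly

variable {E W : Type*} [NormedAddCommGroup E] [NormedSpace ℝ E]
  [NormedAddCommGroup W] [NormedSpace ℝ W]

/-- polynomial maps of degree at most `d` -/
structure IsPoly (d : ℕ) (P : E → W) : Prop where
  smooth : ContDiff ℝ (⊤ : ℕ∞) P
  zero : ∀ x, iteratedFDeriv ℝ (d + 1) P x = 0

lemma IsPoly.sub {d : ℕ} {P Q : E → W} (hP : IsPoly d P) (hQ : IsPoly d Q) :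
    IsPoly d (fun x => P x - Q x) := by
  refine ⟨hP.smooth.sub hQ.smooth, fun x => ?_⟩
  have h := iteratedFDeriv_sub_apply (𝕜 := ℝ) (i := d + 1) (f := P) (g := Q) (x := x)
    (hP.smooth.contDiffAt.of_le (by exact_mod_cast le_top))
    (hQ.smooth.contDiffAt.of_le (by exact_mod_cast le_top))
  have e : (fun x => P x - Q x) = P - Q := rfl
  rw [e, h, hP.zero, hQ.zero, sub_zero]

lemma IsPoly.fderiv {d : ℕ} {P : E → W} (hP : IsPoly (d + 1) P) :
    IsPoly d (fun x => fderiv ℝ P x) := by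
  refine ⟨hP.smooth.fderiv_right (m := (⊤ : ℕ∞)) (by simp), fun x => ?_⟩
  have h := hP.zero x
  rw [← norm_eq_zero] at h ⊢
  rwa [norm_iteratedFDeriv_fderiv]

lemma IsPoly.succ {d : ℕ} {P : E → W} (hP : IsPoly d P) : IsPoly (d + 1) P := by
  refine ⟨hP.smooth, fun x => ?_⟩
  have h0 : iteratedFDeriv ℝ (d + 1) P = fun _ => 0 := funext hP.zero
  have h1 : ‖iteratedFDeriv ℝ (d + 1 + 1) P x‖ = 0 := by
    rw [← norm_fderiv_iteratedFDeriv, h0]
    have h2 : _root_.fderiv ℝ (fun _ : E => (0 : ContinuousMultilinearMap ℝ (fun _ : Fin (d + 1) => E) W)) x = 0 :=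
      fderiv_const_apply _
    rw [h2]
    exact norm_zero (E := E →L[ℝ] ContinuousMultilinearMap ℝ (fun _ : Fin (d + 1) => E) W)
  exact norm_eq_zero.1 h1

lemma IsPoly.differentiable {d : ℕ} {P : E → W} (hP : IsPoly d P) : Differentiable ℝ P :=
  hP.smooth.differentiable (by simp)

lemma IsPoly.const {P : E → W} (hP : IsPoly 0 P) (x y : E) : P x = P y := by
  refine is_const_of_fderiv_eq_zero (𝕜 := ℝ) hP.differentiable (fun z => ?_) x y
  have h := hP.zero z
  rw [← norm_eq_zero] at h ⊢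
  have h2 := norm_iteratedFDeriv_fderiv (𝕜 := ℝ) (f := P) (n := 0) (x := z)
  rw [h] at h2
  rwa [norm_iteratedFDeriv_zero] at h2

/-- Restriction to a line. -/
lemma IsPoly.line {E : Type u} [NormedAddCommGroup E] [NormedSpace ℝ E] (x v : E) (d : ℕ) :
    ∀ {W : Type u} [NormedAddCommGroup W] [NormedSpace ℝ W] {P : E → W}, IsPoly d P →
    ∃ w : ℕ → W, w 0 = P x ∧ (1 ≤ d → w 1 = _root_.fderiv ℝ P x v) ∧
      ∀ t : ℝ, P (x + t • v) = ∑ j ∈ Finset.range (d + 1), t ^ j • w j := by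
  induction d with
  | zero =>
    intro W _ _ P hP
    refine ⟨fun _ => P x, rfl, by simp, fun t => ?_⟩
    simp [hP.const (x + t • v) x]
  | succ d ih =>
    intro W _ _ P hP
    obtain ⟨u, hu0, -, hu⟩ := ih hP.fderiv
    let w : ℕ → W := fun j => Nat.casesOn j (P x) (fun i => ((i : ℝ) + 1)⁻¹ • u i v)
    have hd : ∀ t : ℝ, HasDerivAt (fun t : ℝ => P (x + t • v))
        (∑ j ∈ Finset.range (d + 1), t ^ j • u j v) t := by
      intro t
      have h1 : HasDerivAt (fun t : ℝ => x + t • v) v t := by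
        simpa using ((hasDerivAt_id t).smul_const v).const_add x
      have h2 := (hP.differentiable (x + t • v)).hasFDerivAt.comp_hasDerivAt t h1
      have h3 : (_root_.fderiv ℝ P (x + t • v)) v = ∑ j ∈ Finset.range (d + 1), t ^ j • u j v := by
        rw [hu t]
        simp
      rw [h3] at h2
      exact h2
    have hg : ∀ t : ℝ, HasDerivAt (fun t : ℝ => P x + ∑ j ∈ Finset.range (d + 1), t ^ (j + 1) • (((j : ℝ) + 1)⁻¹ • u j v))
        (∑ j ∈ Finset.range (d + 1), t ^ j • u j v) t := by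
      intro t
      have h4 : HasDerivAt (fun t : ℝ => ∑ j ∈ Finset.range (d + 1), t ^ (j + 1) • (((j : ℝ) + 1)⁻¹ • u j v))
          (∑ j ∈ Finset.range (d + 1), (((j + 1 : ℕ) : ℝ) * t ^ j) • (((j : ℝ) + 1)⁻¹ • u j v)) t := by
        refine HasDerivAt.fun_sum (fun j _ => ?_)
        have := (hasDerivAt_pow (j + 1) t).smul_const ((((j : ℝ) + 1)⁻¹) • u j v)
        simpa using this
      have h5 := h4.const_add (P x)
      convert h5 using 1
      refine Finset.sum_congr rfl (fun j _ => ?_)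
      rw [smul_smul]
      congr 1
      have : ((j : ℝ) + 1) ≠ 0 := by positivity
      push_cast
      field_simp
    have hconst : ∀ t : ℝ, P (x + t • v) - (P x + ∑ j ∈ Finset.range (d + 1), t ^ (j + 1) • (((j : ℝ) + 1)⁻¹ • u j v)) = 0 := by
      intro t
      have h6 := is_const_of_deriv_eq_zero
        (f := fun t : ℝ => P (x + t • v) - (P x + ∑ j ∈ Finset.range (d + 1), t ^ (j + 1) • (((j : ℝ) + 1)⁻¹ • u j v)))
        (fun t => ((hd t).sub (hg t)).differentiableAt)
        (fun t => by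
          have h7 := ((hd t).sub (hg t)).deriv
          rw [sub_self] at h7
          exact h7) t 0
      rw [h6]
      simp
    refine ⟨w, rfl, fun _ => ?_, fun t => ?_⟩
    · have : w 1 = ((0 : ℝ) + 1)⁻¹ • u 0 v := by simp [w]
      rw [this, hu0]
      simp
    · rw [Finset.sum_range_succ']
      have := sub_eq_zero.1 (hconst t)
      rw [this, add_comm]
      simp [w]

/-- Nodes. -/
noncomputable def node (d : ℕ) (i : ℕ) : ℝ := (i : ℝ) / (d + 1)

lemma node_mem (d : ℕ) {i : ℕ} (hi : i ∈ Finset.range (d + 1)) : node d i ∈ Icc (0 : ℝ) 1 := by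
  have h : i < d + 1 := Finset.mem_range.1 hi
  have h' : (i : ℝ) ≤ d + 1 := by exact_mod_cast h.le
  refine ⟨by unfold node; positivity, ?_⟩
  unfold node
  rw [div_le_one (by positivity)]
  exact h'

lemma node_inj (d : ℕ) : Set.InjOn (node d) (Finset.range (d + 1) : Finset ℕ) := by
  intro i _ j _ h
  unfold node at h
  have hd : ((d : ℝ) + 1) ≠ 0 := by positivity
  have := (div_left_inj' hd).1 h
  exact_mod_cast this

noncomputable def cf (d j i : ℕ) : ℝ :=
  (Lagrange.basis (Finset.range (d + 1)) (node d) i).coeff j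

lemma cf_sum (d j l : ℕ) (hl : l ≤ d) :
    ∑ i ∈ Finset.range (d + 1), cf d j i * node d i ^ l = if j = l then 1 else 0 := by
  have h := Lagrange.eq_interpolate (s := Finset.range (d + 1)) (v := node d) (f := (Polynomial.X : Polynomial ℝ) ^ l)
    (node_inj d) (by
      rw [Polynomial.degree_X_pow, Finset.card_range]
      exact_mod_cast Nat.lt_succ_of_le hl)
  have h2 := congrArg (fun p => Polynomial.coeff p j) h
  simp only [Lagrange.interpolate_apply, Polynomial.finsetSum_coeff, Polynomial.coeff_C_mul,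
    Polynomial.eval_pow, Polynomial.eval_X, Polynomial.coeff_X_pow] at h2
  rw [h2]
  exact Finset.sum_congr rfl (fun i _ => by unfold cf; ring)

/-- Markov constant -/
noncomputable def mkc (d : ℕ) : ℝ :=
  1 + ∑ j ∈ Finset.range (d + 1), ∑ i ∈ Finset.range (d + 1), |cf d j i|

lemma mkc_pos (d : ℕ) : 0 < mkc d := by
  unfold mkc
  have : 0 ≤ ∑ j ∈ Finset.range (d + 1), ∑ i ∈ Finset.range (d + 1), |cf d j i| :=
    Finset.sum_nonneg (fun j _ => Finset.sum_nonneg (fun i _ => abs_nonneg _))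
  linarith

lemma coeff_le {d : ℕ} {w : ℕ → W} {B : ℝ}
    (h : ∀ t ∈ Icc (0 : ℝ) 1, ‖∑ j ∈ Finset.range (d + 1), t ^ j • w j‖ ≤ B) {j : ℕ} (hj : j ≤ d) :
    ‖w j‖ ≤ mkc d * B := by
  have hB : 0 ≤ B := le_trans (norm_nonneg _) (h 0 (by simp))
  have e : w j = ∑ i ∈ Finset.range (d + 1), cf d j i • ∑ l ∈ Finset.range (d + 1), node d i ^ l • w l := by
    simp_rw [Finset.smul_sum]
    rw [Finset.sum_comm]
    have : ∀ l ∈ Finset.range (d + 1), ∑ i ∈ Finset.range (d + 1), cf d j i • node d i ^ l • w l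
        = (if j = l then (1 : ℝ) else 0) • w l := by
      intro l hl
      rw [← cf_sum d j l (Nat.lt_succ_iff.1 (Finset.mem_range.1 hl)), Finset.sum_smul]
      exact Finset.sum_congr rfl (fun i _ => by rw [smul_smul])
    rw [Finset.sum_congr rfl this]
    simp [Finset.mem_range, Nat.lt_succ_iff.2 hj]
  rw [e]
  calc ‖∑ i ∈ Finset.range (d + 1), cf d j i • ∑ l ∈ Finset.range (d + 1), node d i ^ l • w l‖
      ≤ ∑ i ∈ Finset.range (d + 1), ‖cf d j i • ∑ l ∈ Finset.range (d + 1), node d i ^ l • w l‖ :=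
        norm_sum_le _ _
    _ ≤ ∑ i ∈ Finset.range (d + 1), |cf d j i| * B := by
        refine Finset.sum_le_sum (fun i hi => ?_)
        rw [norm_smul, Real.norm_eq_abs]
        exact mul_le_mul_of_nonneg_left (h _ (node_mem d hi)) (abs_nonneg _)
    _ = (∑ i ∈ Finset.range (d + 1), |cf d j i|) * B := by rw [Finset.sum_mul]
    _ ≤ mkc d * B := by
        refine mul_le_mul_of_nonneg_right ?_ hB
        unfold mkc
        have h1 : ∑ i ∈ Finset.range (d + 1), |cf d j i| ≤
            ∑ j ∈ Finset.range (d + 1), ∑ i ∈ Finset.range (d + 1), |cf d j i| :=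
          Finset.single_le_sum (f := fun j => ∑ i ∈ Finset.range (d + 1), |cf d j i|)
            (fun j _ => Finset.sum_nonneg (fun i _ => abs_nonneg _)) (Finset.mem_range.2 (Nat.lt_succ_of_le hj))
        linarith

end poly

section main

variable {E : Type u} [NormedAddCommGroup E] [NormedSpace ℝ E]
  {W : Type u} [NormedAddCommGroup W] [NormedSpace ℝ W]

/-- Markov inequality at the centre. -/
lemma IsPoly.fderiv_bound {d : ℕ} {P : E → W} (hP : IsPoly d P) {x : E} {r B : ℝ} (hr : 0 < r)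
    (h : ∀ y, dist y x ≤ r → ‖P y‖ ≤ B) : ‖_root_.fderiv ℝ P x‖ ≤ mkc d * B / r := by
  have hB : 0 ≤ B := le_trans (norm_nonneg _) (h x (by simp [hr.le]))
  refine ContinuousLinearMap.opNorm_le_bound _ (by have := mkc_pos d; positivity) (fun v => ?_)
  rcases Nat.eq_zero_or_pos d with rfl | hd
  · have : _root_.fderiv ℝ P x = 0 := by
      have e : P = fun _ => P x := funext (fun y => hP.const y x)
      rw [e]; exact fderiv_const_apply _
    rw [this]
    simp only [zero_apply, norm_zero]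
    have := mkc_pos 0; positivity
  · rcases eq_or_ne v 0 with rfl | hv
    · simp
    · have hv' : 0 < ‖v‖ := norm_pos_iff.2 hv
      obtain ⟨w, -, hw1, hw⟩ := IsPoly.line x ((r / ‖v‖) • v) d hP
      have h1 : ‖w 1‖ ≤ mkc d * B := by
        refine coeff_le (fun t ht => ?_) hd
        rw [← hw t]
        refine h _ ?_
        rw [dist_eq_norm, add_sub_cancel_left, norm_smul, norm_smul, Real.norm_eq_abs,
          Real.norm_eq_abs, abs_of_nonneg ht.1, abs_of_pos (div_pos hr hv'), div_mul_cancel₀ _ hv'.ne']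
        nlinarith [ht.2]
      rw [hw1 hd, map_smul, norm_smul, Real.norm_eq_abs, abs_of_pos (div_pos hr hv')] at h1
      calc ‖_root_.fderiv ℝ P x v‖
          = (r / ‖v‖ * ‖_root_.fderiv ℝ P x v‖) * (‖v‖ / r) := by field_simp
        _ ≤ (mkc d * B) * (‖v‖ / r) := mul_le_mul_of_nonneg_right h1 (by positivity)
        _ = mkc d * B / r * ‖v‖ := by ring

/-- **Converse Taylor theorem**, pointwise form. -/
theorem contDiffOn_of_poly {U : Set E} (hU : IsOpen U) {a : ℝ} (ha : 0 < a) (k : ℕ) :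
    ∀ {W : Type u} [NormedAddCommGroup W] [NormedSpace ℝ W] (d : ℕ) {f : E → W} {P : E → E → W},
      (∀ z ∈ U, IsPoly (d + k) (P z)) →
      (∀ z₀ ∈ U, ∃ C r : ℝ, 0 < r ∧ ∀ z ∈ U, dist z z₀ < r → ∀ x ∈ U, dist x z < r →
        ‖f x - P z x‖ ≤ C * dist x z ^ ((k : ℝ) + a)) →
      ContDiffOn ℝ k f U := by
  induction k with
  | zero =>
    intro W _ _ d f P hP h
    rw [show ((0 : ℕ) : WithTop ℕ∞) = 0 from rfl, contDiffOn_zero]
    intro z hz
    obtain ⟨C, r, hr, hC⟩ := h z hz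
    have hfz : f z = P z z := by
      have := hC z hz (by simpa using hr) z hz (by simpa using hr)
      simp only [dist_self, Nat.cast_zero, zero_add, Real.zero_rpow ha.ne', mul_zero] at this
      exact sub_eq_zero.1 (norm_le_zero_iff.1 this)
    have h1 : Tendsto (fun x => P z x + (f x - P z x)) (𝓝[U] z) (𝓝 (P z z + 0)) := by
      refine Tendsto.add ((hP z hz).differentiable.continuous.continuousWithinAt) ?_
      have h2 : Tendsto (fun x => C * dist x z ^ ((0 : ℕ) + a : ℝ)) (𝓝[U] z) (𝓝 0) := by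
        have h3 : Tendsto (fun x : E => C * dist x z ^ ((0 : ℕ) + a : ℝ)) (𝓝 z) (𝓝 (C * dist z z ^ ((0 : ℕ) + a : ℝ))) := by
          refine (Continuous.tendsto ?_ z)
          exact continuous_const.mul ((continuous_id.dist continuous_const).rpow_const
            (fun _ => Or.inr (by simp; exact ha.le)))
        rw [dist_self, Real.zero_rpow (by simp; exact ha.ne'), mul_zero] at h3
        exact h3.mono_left nhdsWithin_le_nhds
      refine squeeze_zero_norm' ?_ h2
      have h4 : ∀ᶠ x in 𝓝[U] z, dist x z < r :=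
        nhdsWithin_le_nhds (Metric.ball_mem_nhds z hr)
      filter_upwards [h4, self_mem_nhdsWithin] with x hx hxU
      exact hC z hz (by simpa using hr) x hxU hx
    simp only [add_sub_cancel, add_zero] at h1
    rw [← hfz] at h1
    exact h1
  | succ k ih =>
    intro W _ _ d f P hP h
    have hder : ∀ z ∈ U, HasFDerivAt f (_root_.fderiv ℝ (P z) z) z := by
      intro z hz
      obtain ⟨C, r, hr, hC⟩ := h z hz
      have hfz : f z = P z z := by
        have := hC z hz (by simpa using hr) z hz (by simpa using hr)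
        rw [dist_self, Real.zero_rpow (by positivity), mul_zero] at this
        exact sub_eq_zero.1 (norm_le_zero_iff.1 this)
      have h1 : HasFDerivAt (P z) (_root_.fderiv ℝ (P z) z) z :=
        ((hP z hz).differentiable z).hasFDerivAt
      have h2 : HasFDerivAt (fun x => f x - P z x) (0 : E →L[ℝ] W) z := by
        rw [hasFDerivAt_iff_isLittleO]
        simp only [zero_apply, sub_zero, hfz, sub_self]
        rw [Asymptotics.isLittleO_iff]
        intro c hc
        have h3 : Tendsto (fun x : E => C * dist x z ^ ((k : ℝ) + a)) (𝓝 z) (𝓝 0) := by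
          have h3 : Tendsto (fun x : E => C * dist x z ^ ((k : ℝ) + a)) (𝓝 z) (𝓝 (C * dist z z ^ ((k : ℝ) + a))) := by
            refine (Continuous.tendsto ?_ z)
            exact continuous_const.mul ((continuous_id.dist continuous_const).rpow_const
              (fun _ => Or.inr (by positivity)))
          rwa [dist_self, Real.zero_rpow (by positivity), mul_zero] at h3
        filter_upwards [Metric.ball_mem_nhds z hr, hU.mem_nhds hz, h3.eventually (gt_mem_nhds hc)]
          with x hx hxU hxc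
        have h4 := hC z hz (by simpa using hr) x hxU hx
        rw [← dist_eq_norm x z]
        rcases eq_or_lt_of_le (dist_nonneg (x := x) (y := z)) with h0 | h0
        · rw [← h0] at h4 ⊢
          rw [Real.zero_rpow (by positivity)] at h4
          simpa using h4
        · calc ‖f x - P z x‖ ≤ C * dist x z ^ (((k + 1 : ℕ) : ℝ) + a) := h4
            _ = (C * dist x z ^ ((k : ℝ) + a)) * dist x z := by
              rw [show (((k + 1 : ℕ) : ℝ) + a) = ((k : ℝ) + a) + 1 by push_cast; ring,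
                Real.rpow_add_one h0.ne', mul_assoc]
            _ ≤ c * dist x z := mul_le_mul_of_nonneg_right hxc.le h0.le
      have h5 := h2.add h1
      have h6 : (fun x => f x - P z x) + P z = f := by
        funext x
        simp
      rwa [h6, zero_add] at h5
    have hfd : ∀ z ∈ U, _root_.fderiv ℝ f z = _root_.fderiv ℝ (P z) z := fun z hz => (hder z hz).fderiv
    rw [show ((k + 1 : ℕ) : WithTop ℕ∞) = (k : WithTop ℕ∞) + 1 by push_cast; rfl,
      contDiffOn_succ_iff_fderiv_of_isOpen hU]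
    refine ⟨fun z hz => (hder z hz).differentiableAt.differentiableWithinAt, by simp, ?_⟩
    refine ih d (P := fun z x => _root_.fderiv ℝ (P z) x) (fun z hz => (hP z hz).fderiv) ?_
    intro z₀ hz₀
    obtain ⟨C, r, hr, hC⟩ := h z₀ hz₀
    obtain ⟨ρ, hρ, hρU⟩ := Metric.isOpen_iff.1 hU z₀ hz₀
    set δ : ℝ := min r ρ / 8 with hδ
    have hδ0 : 0 < δ := by positivity
    have hδr : 8 * δ ≤ r := by rw [hδ]; linarith [min_le_left r ρ]
    have hδρ : 8 * δ ≤ ρ := by rw [hδ]; linarith [min_le_right r ρ]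
    refine ⟨mkc (d + (k + 1)) * (|C| * (1 + 2 ^ (((k + 1 : ℕ) : ℝ) + a))), δ, hδ0, ?_⟩
    intro z hz hzd x hx hxd
    rw [hfd x hx]
    rcases eq_or_lt_of_le (dist_nonneg (x := x) (y := z)) with h0 | h0
    · have hxz : x = z := dist_eq_zero.1 h0.symm
      subst hxz
      simp only [sub_self, norm_zero]
      have := mkc_pos (d + (k + 1)); positivity
    · have hsub : _root_.fderiv ℝ (P x) x - _root_.fderiv ℝ (P z) x
          = _root_.fderiv ℝ (fun y => P x y - P z y) x := by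
        rw [fderiv_fun_sub ((hP x hx).differentiable x) ((hP z hz).differentiable x)]
      rw [hsub]
      have hb := IsPoly.fderiv_bound ((hP x hx).sub (hP z hz)) (x := x) (r := dist x z)
        (B := |C| * (1 + 2 ^ (((k + 1 : ℕ) : ℝ) + a)) * dist x z ^ (((k + 1 : ℕ) : ℝ) + a)) h0 ?_
      · refine hb.trans (le_of_eq ?_)
        rw [show (((k + 1 : ℕ) : ℝ) + a) = ((k : ℝ) + a) + 1 by push_cast; ring,
                Real.rpow_add_one h0.ne']
        field_simp
      · intro y hy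
        have hyz : dist y z ≤ 2 * dist x z := by linarith [dist_triangle y x z]
        have hyz0 : dist y z₀ < ρ := by
          linarith [dist_triangle y z z₀]
        have hyU : y ∈ U := hρU hyz0
        have e1 := hC x hx (by linarith [dist_triangle x z z₀]) y hyU (by linarith)
        have e2 := hC z hz (by linarith) y hyU (by linarith)
        have hκ : 0 ≤ (((k + 1 : ℕ) : ℝ) + a) := by positivity
        have e3 : dist y x ^ (((k + 1 : ℕ) : ℝ) + a) ≤ dist x z ^ (((k + 1 : ℕ) : ℝ) + a) :=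
          Real.rpow_le_rpow dist_nonneg hy hκ
        have e4 : dist y z ^ (((k + 1 : ℕ) : ℝ) + a) ≤ 2 ^ (((k + 1 : ℕ) : ℝ) + a) * dist x z ^ (((k + 1 : ℕ) : ℝ) + a) := by
          rw [← Real.mul_rpow (by norm_num) dist_nonneg]
          exact Real.rpow_le_rpow dist_nonneg hyz hκ
        have e5 : ‖f y - P x y‖ ≤ |C| * dist x z ^ (((k + 1 : ℕ) : ℝ) + a) :=
          e1.trans ((mul_le_mul_of_nonneg_right (le_abs_self C) (by positivity)).trans
            (mul_le_mul_of_nonneg_left e3 (abs_nonneg C)))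
        have e6 : ‖f y - P z y‖ ≤ |C| * (2 ^ (((k + 1 : ℕ) : ℝ) + a) * dist x z ^ (((k + 1 : ℕ) : ℝ) + a)) :=
          e2.trans ((mul_le_mul_of_nonneg_right (le_abs_self C) (by positivity)).trans
            (mul_le_mul_of_nonneg_left e4 (abs_nonneg C)))
        have e7 : P x y - P z y = (f y - P z y) - (f y - P x y) := by abel
        rw [e7]
        calc ‖(f y - P z y) - (f y - P x y)‖ ≤ ‖f y - P z y‖ + ‖f y - P x y‖ := norm_sub_le _ _
          _ ≤ |C| * (1 + 2 ^ (((k + 1 : ℕ) : ℝ) + a)) * dist x z ^ (((k + 1 : ℕ) : ℝ) + a) := by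
            nlinarith [e5, e6]

/-- Second order remainder of a polynomial on a smaller ball. -/
lemma IsPoly.rem_bound {D : ℕ} {P : E → W} (hP : IsPoly D P) {x : E} {s θ B : ℝ} (hs : 0 < s)
    (hθ : 0 < θ) (hθ1 : θ ≤ 1)
    (h : ∀ v : E, ‖v‖ ≤ s → ‖P (x + v) - P x - _root_.fderiv ℝ P x v‖ ≤ B) {v : E} (hv : ‖v‖ ≤ θ * s) :
    ‖P (x + v) - P x - _root_.fderiv ℝ P x v‖ ≤ ((D : ℝ) + 1) * mkc D * θ ^ 2 * B := by
  have hB : 0 ≤ B := le_trans (norm_nonneg _) (h 0 (by simp [hs.le]))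
  have hM := mkc_pos D
  rcases eq_or_ne v 0 with rfl | hv0
  · simp only [add_zero, sub_self, map_zero, norm_zero]; positivity
  have hv' : 0 < ‖v‖ := norm_pos_iff.2 hv0
  rcases Nat.eq_zero_or_pos D with rfl | hD
  · have e : P = fun _ => P x := funext (fun y => hP.const y x)
    have e2 : _root_.fderiv ℝ P x = 0 := by rw [e]; exact fderiv_const_apply _
    rw [e2, hP.const (x + v) x]
    simp only [sub_self, zero_apply, norm_zero]; positivity
  obtain ⟨w, hw0, hw1, hw⟩ := IsPoly.line x ((s / ‖v‖) • v) D hP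
  have hw1 := hw1 hD
  let w' : ℕ → W := fun j => if j ≤ 1 then 0 else w j
  have key : ∀ t : ℝ, P (x + t • (s / ‖v‖) • v) - P x - _root_.fderiv ℝ P x (t • (s / ‖v‖) • v)
      = ∑ j ∈ Finset.range (D + 1), t ^ j • w' j := by
    intro t
    rw [hw t, map_smul, ← hw1]
    obtain ⟨D', rfl⟩ : ∃ D', D = D' + 1 := ⟨D - 1, by omega⟩
    rw [Finset.sum_range_succ', Finset.sum_range_succ', Finset.sum_range_succ' (fun j => t ^ j • w' j),
      Finset.sum_range_succ' (fun j => t ^ (j + 1) • w' (j + 1))]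
    have e1 : ∀ j, w' (j + 1 + 1) = w (j + 1 + 1) := fun j => by simp [w']
    have e2 : w' 1 = 0 := by simp [w']
    have e3 : w' 0 = 0 := by simp [w']
    simp only [e1, e2, e3, zero_add, pow_zero, one_smul, pow_one, smul_zero, add_zero, hw0]
    abel
  have hc : ∀ j ≤ D, ‖w' j‖ ≤ mkc D * B := by
    intro j hj
    refine coeff_le (fun t ht => ?_) hj
    rw [← key t]
    refine h _ ?_
    rw [norm_smul, norm_smul, Real.norm_eq_abs,
          Real.norm_eq_abs, abs_of_nonneg ht.1, abs_of_pos (div_pos hs hv'), div_mul_cancel₀ _ hv'.ne']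
    nlinarith [ht.2]
  have hk := key (‖v‖ / s)
  have hvv : (‖v‖ / s) • (s / ‖v‖) • v = v := by
    rw [smul_smul, div_mul_div_comm, mul_comm s, div_self (by positivity), one_smul]
  rw [hvv] at hk
  rw [hk]
  have ht0 : 0 ≤ ‖v‖ / s := by positivity
  have ht1 : ‖v‖ / s ≤ θ := by rwa [div_le_iff₀ hs]
  calc ‖∑ j ∈ Finset.range (D + 1), (‖v‖ / s) ^ j • w' j‖
      ≤ ∑ j ∈ Finset.range (D + 1), ‖(‖v‖ / s) ^ j • w' j‖ := norm_sum_le _ _
    _ ≤ ∑ j ∈ Finset.range (D + 1), θ ^ 2 * (mkc D * B) := by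
        refine Finset.sum_le_sum (fun j hj => ?_)
        have hj' : j ≤ D := Nat.lt_succ_iff.1 (Finset.mem_range.1 hj)
        by_cases h1 : j ≤ 1
        · simp only [w', if_pos h1, smul_zero, norm_zero]; positivity
        · rw [norm_smul, Real.norm_eq_abs, abs_of_nonneg (by positivity)]
          have h2 : (‖v‖ / s) ^ j ≤ θ ^ 2 := by
            calc (‖v‖ / s) ^ j ≤ θ ^ j := pow_le_pow_left₀ ht0 ht1 j
              _ ≤ θ ^ 2 := pow_le_pow_of_le_one hθ.le hθ1 (by omega)
          exact mul_le_mul h2 (hc j hj') (norm_nonneg _) (by positivity)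
    _ = ((D : ℝ) + 1) * mkc D * θ ^ 2 * B := by
        rw [Finset.sum_const, Finset.card_range]
        simp only [nsmul_eq_mul, Nat.cast_add, Nat.cast_one]
        ring

lemma tendsto_zero_of_half {β ε : ℕ → ℝ} (h0 : ∀ n, 0 ≤ β n) (hβ : ∀ n, β (n + 1) ≤ β n / 2 + ε n)
    (hε : Tendsto ε atTop (𝓝 0)) : Tendsto β atTop (𝓝 0) := by
  rw [Metric.tendsto_atTop]
  intro δ hδ
  obtain ⟨N, hN⟩ := (Metric.tendsto_atTop.1 hε) (δ / 4) (by positivity)
  have h1 : ∀ m, β (N + m) ≤ (1 / 2) ^ m * β N + δ / 2 := by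
    intro m
    induction m with
    | zero => simp; positivity
    | succ m ih =>
      have h2 := hβ (N + m)
      have h3 := hN (N + m) (by omega)
      rw [Real.dist_eq, sub_zero] at h3
      have h4 := le_abs_self (ε (N + m))
      rw [← add_assoc, pow_succ]
      linarith
  have h2 : Tendsto (fun m : ℕ => (1 / 2 : ℝ) ^ m * β N) atTop (𝓝 (0 * β N)) :=
    (tendsto_pow_atTop_nhds_zero_of_lt_one (by norm_num) (by norm_num)).mul_const _
  rw [zero_mul] at h2
  obtain ⟨m0, hm0⟩ := (Metric.tendsto_atTop.1 h2) (δ / 4) (by positivity)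
  refine ⟨N + m0, fun n hn => ?_⟩
  obtain ⟨m, rfl⟩ : ∃ m, n = N + m := ⟨n - N, by omega⟩
  have h3 := hm0 m (by omega)
  rw [Real.dist_eq, sub_zero] at h3 ⊢
  rw [abs_of_nonneg (h0 _)]
  have h4 := le_abs_self ((1 / 2 : ℝ) ^ m * β N)
  linarith [h1 m]

/-- The one point lemma of Campanato type. -/
lemma campanato_point [ProperSpace E] [CompleteSpace W] (D : ℕ) {κ C : ℝ} (hκ : 1 < κ) (hC : 0 ≤ C) :
    ∃ C' : ℝ, 0 ≤ C' ∧ ∀ {f : E → W} {x : E} {s : ℝ} {P : E → W}, 0 < s →
      (∀ t, 0 < t → t ≤ s → ∃ Q : E → W, IsPoly D Q ∧ ∀ y, dist y x ≤ t → ‖f y - Q y‖ ≤ C * t ^ κ) →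
      IsPoly D P → (∀ y, dist y x ≤ s → ‖f y - P y‖ ≤ C * s ^ κ) →
      ∃ L : E →L[ℝ] W, HasFDerivAt f L x ∧ ‖L - _root_.fderiv ℝ P x‖ ≤ C' * s ^ (κ - 1) := by
  have hM := mkc_pos D
  set M := mkc D with hMdef
  obtain ⟨θ, hθ0, hθ1, hθM⟩ : ∃ θ : ℝ, 0 < θ ∧ θ ≤ 1 / 2 ∧ ((D : ℝ) + 1) * M * θ ≤ 1 / 2 := by
    refine ⟨min (1 / 2) (1 / (2 * (((D : ℝ) + 1) * M))), by positivity, min_le_left _ _, ?_⟩
    have h1 : min (1 / 2) (1 / (2 * (((D : ℝ) + 1) * M))) ≤ 1 / (2 * (((D : ℝ) + 1) * M)) := min_le_right _ _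
    calc ((D : ℝ) + 1) * M * min (1 / 2) (1 / (2 * (((D : ℝ) + 1) * M)))
        ≤ ((D : ℝ) + 1) * M * (1 / (2 * (((D : ℝ) + 1) * M))) := mul_le_mul_of_nonneg_left h1 (by positivity)
      _ = 1 / 2 := by field_simp
  have hθlt : θ < 1 := by linarith
  set lam : ℝ := θ ^ (κ - 1) with hlam
  have hlam0 : 0 < lam := Real.rpow_pos_of_pos hθ0 _
  have hlam1 : lam < 1 := Real.rpow_lt_one hθ0.le hθlt (by linarith)
  refine ⟨(2 * M * C / θ) / (1 - lam), by
    have : 0 < 1 - lam := by linarith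
    positivity, ?_⟩
  intro f x s P hs hex hP hPs
  -- the sequence
  set sn : ℕ → ℝ := fun n => θ ^ n * s with hsn
  have hsn0 : ∀ n, 0 < sn n := fun n => by positivity
  have hsns : ∀ n, sn n ≤ s := fun n => by
    have : θ ^ n ≤ 1 := pow_le_one₀ hθ0.le hθlt.le
    simp only [hsn]; nlinarith
  have hsn1 : ∀ n, sn (n + 1) = θ * sn n := fun n => by simp only [hsn, pow_succ]; ring
  have hsnk : ∀ n, sn n ^ (κ - 1) = lam ^ n * s ^ (κ - 1) := fun n => by
    simp only [hsn]
    rw [Real.mul_rpow (by positivity) hs.le, hlam, ← Real.rpow_natCast, ← Real.rpow_mul hθ0.le,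
      ← Real.rpow_natCast, ← Real.rpow_mul hθ0.le, mul_comm (n : ℝ)]
  have hsnκ : ∀ n, sn n ^ κ = sn n ^ (κ - 1) * sn n := fun n => by
    rw [← Real.rpow_add_one (hsn0 n).ne']; congr 1; ring
  have hseq : ∀ n, ∃ Q : E → W, IsPoly D Q ∧ (∀ y, dist y x ≤ sn n → ‖f y - Q y‖ ≤ C * sn n ^ κ) ∧
      (n = 0 → Q = P) := by
    intro n
    rcases Nat.eq_zero_or_pos n with rfl | hn
    · refine ⟨P, hP, ?_, fun _ => rfl⟩
      have : sn 0 = s := by simp [hsn]
      rw [this]; exact hPs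
    · obtain ⟨Q, hQ, hQ'⟩ := hex (sn n) (hsn0 n) (hsns n)
      exact ⟨Q, hQ, hQ', fun h => by omega⟩
  choose Q hQp hQ hQ0 using hseq
  have hdiff : ∀ n y, dist y x ≤ sn (n + 1) → ‖Q (n + 1) y - Q n y‖ ≤ 2 * C * sn n ^ κ := by
    intro n y hy
    have hle : sn (n + 1) ≤ sn n := by rw [hsn1]; nlinarith [hsn0 n]
    have e1 := hQ (n + 1) y hy
    have e2 := hQ n y (hy.trans hle)
    have e3 : sn (n + 1) ^ κ ≤ sn n ^ κ := Real.rpow_le_rpow (hsn0 _).le hle (by linarith)
    have e4 : Q (n + 1) y - Q n y = (f y - Q n y) - (f y - Q (n + 1) y) := by abel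
    rw [e4]
    refine (norm_sub_le _ _).trans ?_
    nlinarith [mul_le_mul_of_nonneg_left e3 hC]
  have hfd : ∀ n, _root_.fderiv ℝ (fun y => Q (n + 1) y - Q n y) x
      = _root_.fderiv ℝ (Q (n + 1)) x - _root_.fderiv ℝ (Q n) x := fun n => by
    rw [fderiv_fun_sub ((hQp (n + 1)).differentiable x) ((hQp n).differentiable x)]
  have hD1 : ∀ n, ‖_root_.fderiv ℝ (Q (n + 1)) x - _root_.fderiv ℝ (Q n) x‖ ≤ M * (2 * C * sn n ^ κ) / sn (n + 1) := by
    intro n
    rw [← hfd n]
    exact IsPoly.fderiv_bound ((hQp (n + 1)).sub (hQp n)) (hsn0 _) (hdiff n)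
  have hD2 : ∀ n, dist (_root_.fderiv ℝ (Q n) x) (_root_.fderiv ℝ (Q (n + 1)) x) ≤
      (2 * M * C / θ * s ^ (κ - 1)) * lam ^ n := by
    intro n
    rw [dist_comm, dist_eq_norm]
    refine (hD1 n).trans (le_of_eq ?_)
    rw [hsn1, hsnκ, hsnk]
    have := (hsn0 n).ne'
    field_simp
  have hcau := cauchySeq_of_le_geometric lam _ hlam1 hD2
  obtain ⟨L, hL⟩ := cauchySeq_tendsto_of_complete hcau
  have hLn : ∀ n, dist (_root_.fderiv ℝ (Q n) x) L ≤ (2 * M * C / θ * s ^ (κ - 1)) * lam ^ n / (1 - lam) :=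
    fun n => dist_le_of_le_geometric_of_tendsto lam _ hlam1 hD2 hL n
  have hlam' : 0 < 1 - lam := by linarith
  refine ⟨L, ?_, ?_⟩
  swap
  · have h1 := hLn 0
    rw [dist_comm, dist_eq_norm, hQ0 0 rfl] at h1
    refine h1.trans (le_of_eq ?_)
    rw [pow_zero, mul_one]; ring
  -- second order remainders
  obtain ⟨B0, hB0⟩ : ∃ B0 : ℝ, ∀ v : E, ‖v‖ ≤ s → ‖Q 0 (x + v) - Q 0 x - _root_.fderiv ℝ (Q 0) x v‖ ≤ B0 := by
    have hcont : Continuous (fun v : E => ‖Q 0 (x + v) - Q 0 x - _root_.fderiv ℝ (Q 0) x v‖) := by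
      have := (hQp 0).differentiable.continuous
      fun_prop
    obtain ⟨B0, hB0⟩ := (isCompact_closedBall (0 : E) s).exists_bound_of_continuousOn hcont.continuousOn
    refine ⟨B0, fun v hv => ?_⟩
    have := hB0 v (by simpa using hv)
    rwa [norm_norm] at this
  have hB00 : 0 ≤ B0 := le_trans (norm_nonneg _) (hB0 0 (by simp [hs.le]))
  set C5 : ℝ := (4 + 2 * M) * C with hC5
  have hC50 : 0 ≤ C5 := by positivity
  let β : ℕ → ℝ := fun n => Nat.rec (B0 / s) (fun n b => b / 2 + C5 / θ * sn n ^ (κ - 1)) n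
  have hβ0 : β 0 = B0 / s := rfl
  have hβ1 : ∀ n, β (n + 1) = β n / 2 + C5 / θ * sn n ^ (κ - 1) := fun n => rfl
  have hβpos : ∀ n, 0 ≤ β n := by
    intro n
    induction n with
    | zero => rw [hβ0]; positivity
    | succ n ih => rw [hβ1]; have := hsn0 n; positivity
  have hskt : Tendsto (fun n => sn n ^ (κ - 1)) atTop (𝓝 0) := by
    simp_rw [hsnk]
    have := (tendsto_pow_atTop_nhds_zero_of_lt_one hlam0.le hlam1).mul_const (s ^ (κ - 1))
    rwa [zero_mul] at this
  have hβt : Tendsto β atTop (𝓝 0) := by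
    refine tendsto_zero_of_half hβpos (fun n => (hβ1 n).le) ?_
    have := hskt.const_mul (C5 / θ)
    rwa [mul_zero] at this
  have hR : ∀ n, ∀ v : E, ‖v‖ ≤ sn n → ‖Q n (x + v) - Q n x - _root_.fderiv ℝ (Q n) x v‖ ≤ β n * sn n := by
    intro n
    induction n with
    | zero =>
      intro v hv
      have e : sn 0 = s := by simp [hsn]
      rw [e] at hv ⊢
      rw [hβ0, div_mul_cancel₀ _ hs.ne']
      exact hB0 v hv
    | succ n ih =>
      intro v hv
      have hv2 : ‖v‖ ≤ θ * sn n := by rwa [hsn1] at hv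
      have e1 := IsPoly.rem_bound (hQp n) (hsn0 n) hθ0 hθlt.le ih hv2
      have hyx : dist (x + v) x ≤ sn (n + 1) := by rw [dist_eq_norm, add_sub_cancel_left]; exact hv
      have e2 := hdiff n (x + v) hyx
      have e3 := hdiff n x (by simp [(hsn0 (n + 1)).le])
      have e4 : ‖(_root_.fderiv ℝ (Q (n + 1)) x - _root_.fderiv ℝ (Q n) x) v‖ ≤ M * (2 * C * sn n ^ κ) := by
        refine (ContinuousLinearMap.le_opNorm _ _).trans ?_
        calc ‖_root_.fderiv ℝ (Q (n + 1)) x - _root_.fderiv ℝ (Q n) x‖ * ‖v‖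
            ≤ (M * (2 * C * sn n ^ κ) / sn (n + 1)) * sn (n + 1) :=
              mul_le_mul (hD1 n) hv (norm_nonneg _) (by have := hsn0 n; have := hsn0 (n + 1); positivity)
          _ = M * (2 * C * sn n ^ κ) := div_mul_cancel₀ _ (hsn0 (n + 1)).ne'
      have e5 : Q (n + 1) (x + v) - Q (n + 1) x - _root_.fderiv ℝ (Q (n + 1)) x v
          = (Q n (x + v) - Q n x - _root_.fderiv ℝ (Q n) x v)
            + ((Q (n + 1) (x + v) - Q n (x + v)) - (Q (n + 1) x - Q n x)
              - (_root_.fderiv ℝ (Q (n + 1)) x - _root_.fderiv ℝ (Q n) x) v) := by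
        rw [sub_apply]; abel
      rw [e5]
      have e6 : ‖(Q (n + 1) (x + v) - Q n (x + v)) - (Q (n + 1) x - Q n x)
              - (_root_.fderiv ℝ (Q (n + 1)) x - _root_.fderiv ℝ (Q n) x) v‖ ≤ C5 * sn n ^ κ := by
        refine (norm_sub_le _ _).trans ?_
        have := norm_sub_le (Q (n + 1) (x + v) - Q n (x + v)) (Q (n + 1) x - Q n x)
        rw [hC5]
        nlinarith
      refine (norm_add_le _ _).trans ?_
      have e7 : ((D : ℝ) + 1) * mkc D * θ ^ 2 * (β n * sn n) ≤ θ / 2 * (β n * sn n) := by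
        have h1 : 0 ≤ β n * sn n := mul_nonneg (hβpos n) (hsn0 n).le
        have h2 : ((D : ℝ) + 1) * mkc D * θ ^ 2 ≤ θ / 2 := by
          have := mul_le_mul_of_nonneg_right hθM hθ0.le
          calc ((D : ℝ) + 1) * mkc D * θ ^ 2 = ((D : ℝ) + 1) * M * θ * θ := by rw [hMdef]; ring
            _ ≤ 1 / 2 * θ := this
            _ = θ / 2 := by ring
        exact mul_le_mul_of_nonneg_right h2 h1
      calc _ ≤ θ / 2 * (β n * sn n) + C5 * sn n ^ κ := add_le_add (e1.trans e7) e6
        _ = β (n + 1) * sn (n + 1) := by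
          rw [hβ1, hsn1, hsnκ]
          field_simp
  -- differentiability
  rw [hasFDerivAt_iff_isLittleO, Asymptotics.isLittleO_iff]
  intro c hc
  set K6 : ℝ := (2 * M * C / θ) / (1 - lam) with hK6
  have hK60 : 0 ≤ K6 := by positivity
  have hlim : Tendsto (fun n => (2 * C + K6) * sn n ^ (κ - 1) + β n) atTop (𝓝 0) := by
    have := (hskt.const_mul (2 * C + K6)).add hβt
    rwa [mul_zero, zero_add] at this
  obtain ⟨N, hN⟩ := (Metric.tendsto_atTop.1 hlim) (θ * c) (by positivity)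
  filter_upwards [Metric.ball_mem_nhds x (hsn0 N)] with y hy
  rw [Metric.mem_ball, dist_eq_norm] at hy
  rcases eq_or_lt_of_le (norm_nonneg (y - x)) with h0 | h0
  · have : y = x := by rwa [eq_comm, norm_eq_zero, sub_eq_zero] at h0
    rw [this]; simp
  obtain ⟨n, hn1, hn2⟩ := exists_nat_pow_near_of_lt_one (x := ‖y - x‖ / s) (y := θ) (by positivity)
    (by rw [div_le_one hs]; exact hy.le.trans (hsns N)) hθ0 hθlt
  have hn1' : sn (n + 1) < ‖y - x‖ := by rwa [lt_div_iff₀ hs] at hn1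
  have hn2' : ‖y - x‖ ≤ sn n := by rwa [div_le_iff₀ hs] at hn2
  have hNn : N ≤ n := by
    by_contra hcon
    push Not at hcon
    have : sn N ≤ sn (n + 1) := by
      simp only [hsn]
      exact mul_le_mul_of_nonneg_right (pow_le_pow_of_le_one hθ0.le hθlt.le (by omega)) hs.le
    linarith
  have hN' := hN n hNn
  rw [Real.dist_eq, sub_zero] at hN'
  have hN'' := (le_abs_self _).trans hN'.le
  have e1 := hQ n y (by rw [dist_eq_norm]; exact hn2')
  have e2 := hQ n x (by simp [(hsn0 n).le])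
  have e3 := hR n (y - x) hn2'
  rw [add_sub_cancel] at e3
  have e4 : ‖(_root_.fderiv ℝ (Q n) x - L) (y - x)‖ ≤ K6 * sn n ^ (κ - 1) * sn n := by
    refine (ContinuousLinearMap.le_opNorm _ _).trans ?_
    have h1 := hLn n
    rw [dist_eq_norm] at h1
    refine mul_le_mul (h1.trans (le_of_eq ?_)) hn2' (norm_nonneg _) (by have := hsn0 n; positivity)
    rw [hsnk, hK6]; ring
  have e5 : f y - f x - L (y - x) = (f y - Q n y) - (f x - Q n x)
      + (Q n y - Q n x - _root_.fderiv ℝ (Q n) x (y - x)) + (_root_.fderiv ℝ (Q n) x - L) (y - x) := by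
    rw [sub_apply]; abel
  rw [e5]
  have e6 : ‖(f y - Q n y) - (f x - Q n x)
      + (Q n y - Q n x - _root_.fderiv ℝ (Q n) x (y - x)) + (_root_.fderiv ℝ (Q n) x - L) (y - x)‖
      ≤ 2 * C * sn n ^ κ + β n * sn n + K6 * sn n ^ (κ - 1) * sn n := by
    refine (norm_add_le _ _).trans ?_
    have h1 := norm_add_le ((f y - Q n y) - (f x - Q n x)) (Q n y - Q n x - _root_.fderiv ℝ (Q n) x (y - x))
    have h2 := norm_sub_le (f y - Q n y) (f x - Q n x)
    linarith
  refine e6.trans ?_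
  have e7 : 2 * C * sn n ^ κ + β n * sn n + K6 * sn n ^ (κ - 1) * sn n
      = ((2 * C + K6) * sn n ^ (κ - 1) + β n) * sn n := by rw [hsnκ]; ring
  rw [e7]
  calc ((2 * C + K6) * sn n ^ (κ - 1) + β n) * sn n ≤ (θ * c) * sn n :=
        mul_le_mul_of_nonneg_right hN'' (hsn0 n).le
    _ = c * sn (n + 1) := by rw [hsn1]; ring
    _ ≤ c * ‖y - x‖ := mul_le_mul_of_nonneg_left hn1'.le hc.le

/-- **Converse Taylor theorem**, Campanato form: for every small ball there is some polynomial of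
degree `≤ d + k` (which may depend on the ball) at distance `C s ^ (k + a)`. -/
theorem contDiffOn_of_campanato [ProperSpace E] {U : Set E} (hU : IsOpen U) {a : ℝ} (ha : 0 < a) (k : ℕ) :
    ∀ {W : Type u} [NormedAddCommGroup W] [NormedSpace ℝ W] [CompleteSpace W] (d : ℕ) {f : E → W},
      (∀ z₀ ∈ U, ∃ C r : ℝ, 0 < r ∧ ∀ z ∈ U, dist z z₀ < r → ∀ s, 0 < s → s < r →
        ∃ P : E → W, IsPoly (d + k) P ∧ ∀ x ∈ U, dist x z ≤ s → ‖f x - P x‖ ≤ C * s ^ ((k : ℝ) + a)) →
      ContDiffOn ℝ k f U := by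
  induction k with
  | zero =>
    intro W _ _ _ d f h
    rw [show ((0 : ℕ) : WithTop ℕ∞) = 0 from rfl, contDiffOn_zero]
    intro z hz
    obtain ⟨C, r, hr, hC⟩ := h z hz
    rw [Metric.continuousWithinAt_iff]
    intro ε hε
    have h3 : Tendsto (fun s : ℝ => C * s ^ ((0 : ℕ) + a : ℝ)) (𝓝 0) (𝓝 0) := by
      have h3 : Tendsto (fun s : ℝ => C * s ^ ((0 : ℕ) + a : ℝ)) (𝓝 0) (𝓝 (C * 0 ^ ((0 : ℕ) + a : ℝ))) :=
        (Continuous.tendsto (continuous_const.mul (continuous_id.rpow_const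
          (fun _ => Or.inr (by simp; exact ha.le)))) 0)
      rwa [Real.zero_rpow (by simp; exact ha.ne'), mul_zero] at h3
    obtain ⟨s0, hs0, hs1⟩ := (Metric.tendsto_nhds_nhds.1 h3) (ε / 3) (by positivity)
    set s := min s0 r / 2 with hs
    have hspos : 0 < s := by positivity
    have hss0 : s < s0 := by rw [hs]; linarith [min_le_left s0 r, lt_min hs0 hr]
    have hsr : s < r := by rw [hs]; linarith [min_le_right s0 r, lt_min hs0 hr]
    obtain ⟨P, hP, hPs⟩ := hC z hz (by simpa using hr) s hspos hsr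
    have hb := hs1 (x := s) (by rw [Real.dist_eq, sub_zero, abs_of_pos hspos]; exact hss0)
    rw [Real.dist_eq, sub_zero] at hb
    have hb' := lt_of_le_of_lt (le_abs_self _) hb
    obtain ⟨δ, hδ, hδ1⟩ := (Metric.continuous_iff.1 hP.differentiable.continuous) z (ε / 3) (by positivity)
    refine ⟨min δ s, by positivity, fun {x} hx hxd => ?_⟩
    have e1 : ‖f x - P x‖ < ε / 3 := lt_of_le_of_lt (hPs x hx (hxd.le.trans (min_le_right _ _))) hb'
    have e2 : ‖f z - P z‖ < ε / 3 := lt_of_le_of_lt (hPs z hz (by simp [hspos.le])) hb'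
    have e3 := hδ1 x (hxd.trans_le (min_le_left _ _))
    rw [dist_eq_norm] at e3 ⊢
    have e4 : f x - f z = (f x - P x) - (f z - P z) + (P x - P z) := by abel
    rw [e4]
    have e5 := norm_add_le ((f x - P x) - (f z - P z)) (P x - P z)
    have e6 := norm_sub_le (f x - P x) (f z - P z)
    linarith
  | succ k ih =>
    intro W _ _ _ d f h
    have hloc : ∀ z₀ ∈ U, ∃ C' r' : ℝ, 0 < r' ∧ ∀ z ∈ U, dist z z₀ < r' → ∀ s, 0 < s → s < r' →
        ∃ P : E → W, IsPoly (d + (k + 1)) P ∧ ∀ x ∈ U, dist x z ≤ s →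
          HasFDerivAt f (_root_.fderiv ℝ f x) x ∧
          ‖_root_.fderiv ℝ f x - _root_.fderiv ℝ P x‖ ≤ C' * s ^ ((k : ℝ) + a) := by
      intro z₀ hz₀
      obtain ⟨C, r, hr, hC⟩ := h z₀ hz₀
      obtain ⟨ρ, hρ, hρU⟩ := Metric.isOpen_iff.1 hU z₀ hz₀
      set δ : ℝ := min r ρ / 8 with hδ
      have hδ0 : 0 < δ := by positivity
      have hδr : 8 * δ ≤ r := by rw [hδ]; linarith [min_le_left r ρ]
      have hδρ : 8 * δ ≤ ρ := by rw [hδ]; linarith [min_le_right r ρ]
      have hκ : 1 < (((k + 1 : ℕ) : ℝ) + a) := by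
        push_cast; have : (0 : ℝ) ≤ k := Nat.cast_nonneg k; linarith
      obtain ⟨C', hC'0, hC'⟩ := campanato_point (E := E) (W := W) (d + (k + 1)) hκ
        (C := |C| * 2 ^ (((k + 1 : ℕ) : ℝ) + a)) (by positivity)
      refine ⟨C', δ, hδ0, fun z hz hzd s hs hsδ => ?_⟩
      obtain ⟨P, hP, hPs⟩ := hC z hz (by linarith) (2 * s) (by linarith) (by linarith)
      refine ⟨P, hP, fun x hx hxz => ?_⟩
      have hball : ∀ y, dist y x ≤ s → y ∈ U := fun y hy => hρU (by
        have h1 := dist_triangle y x z₀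
        have h2 := dist_triangle x z z₀
        rw [Metric.mem_ball]; linarith)
      have hxd : dist x z₀ < r := by have h2 := dist_triangle x z z₀; linarith
      have h2κ : (1 : ℝ) ≤ 2 ^ (((k + 1 : ℕ) : ℝ) + a) := Real.one_le_rpow (by norm_num) (by positivity)
      have hA : ∀ t, 0 < t → t ≤ s → ∃ Q : E → W, IsPoly (d + (k + 1)) Q ∧ ∀ y, dist y x ≤ t →
          ‖f y - Q y‖ ≤ |C| * 2 ^ (((k + 1 : ℕ) : ℝ) + a) * t ^ (((k + 1 : ℕ) : ℝ) + a) := by
        intro t ht hts
        obtain ⟨Q, hQ, hQt⟩ := hC x hx hxd t ht (by linarith)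
        refine ⟨Q, hQ, fun y hy => (hQt y (hball y (hy.trans hts)) hy).trans ?_⟩
        have h1 : 0 ≤ t ^ (((k + 1 : ℕ) : ℝ) + a) := by positivity
        calc C * t ^ (((k + 1 : ℕ) : ℝ) + a) ≤ |C| * t ^ (((k + 1 : ℕ) : ℝ) + a) :=
              mul_le_mul_of_nonneg_right (le_abs_self C) h1
          _ = |C| * 1 * t ^ (((k + 1 : ℕ) : ℝ) + a) := by ring
          _ ≤ |C| * 2 ^ (((k + 1 : ℕ) : ℝ) + a) * t ^ (((k + 1 : ℕ) : ℝ) + a) :=
              mul_le_mul_of_nonneg_right (mul_le_mul_of_nonneg_left h2κ (abs_nonneg C)) h1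
      have hB : ∀ y, dist y x ≤ s →
          ‖f y - P y‖ ≤ |C| * 2 ^ (((k + 1 : ℕ) : ℝ) + a) * s ^ (((k + 1 : ℕ) : ℝ) + a) := by
        intro y hy
        refine (hPs y (hball y hy) (by linarith [dist_triangle y x z])).trans ?_
        rw [Real.mul_rpow (by norm_num) hs.le, mul_assoc]
        exact mul_le_mul_of_nonneg_right (le_abs_self C) (by positivity)
      obtain ⟨L, hL, hLP⟩ := hC' (f := f) (x := x) (s := s) (P := P) hs hA hP hB
      rw [hL.fderiv]
      have e : (((k + 1 : ℕ) : ℝ) + a) - 1 = (k : ℝ) + a := by push_cast; ring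
      rw [e] at hLP
      exact ⟨hL, hLP⟩
    have hder : ∀ x ∈ U, HasFDerivAt f (_root_.fderiv ℝ f x) x := by
      intro x hx
      obtain ⟨C', r', hr', hC'⟩ := hloc x hx
      obtain ⟨P, -, hP⟩ := hC' x hx (by simpa using hr') (r' / 2) (by linarith) (by linarith)
      exact (hP x hx (by rw [dist_self]; linarith)).1
    rw [show ((k + 1 : ℕ) : WithTop ℕ∞) = (k : WithTop ℕ∞) + 1 by push_cast; rfl,
      contDiffOn_succ_iff_fderiv_of_isOpen hU]
    refine ⟨fun z hz => (hder z hz).differentiableAt.differentiableWithinAt, by simp, ?_⟩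
    refine ih d ?_
    intro z₀ hz₀
    obtain ⟨C', r', hr', hC'⟩ := hloc z₀ hz₀
    refine ⟨C', r', hr', fun z hz hzd s hs hsr => ?_⟩
    obtain ⟨P, hP, hPs⟩ := hC' z hz hzd s hs hsr
    exact ⟨fun x => _root_.fderiv ℝ P x, hP.fderiv, fun x hx hxz => (hPs x hx hxz).2⟩

end main

end Vale.Agent.P207.N3.H339
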